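import Mathlib
import Vale.Agent.P032.Six.Max

/-!
# P032: regular colourings give closed covers with unit-free interiors

`c` is a proper colouring of the plane such that every point is a limit of interior points of its
own colour class.
-/

open Set Filter Topology Metric

noncomputable section

namespace Vale.Agent.P032.ND

variable {X : Type*} [NormedAddCommGroup X] {n : ℕ}

/-- an open set without unit distance: the interior of its closure has no unit distance -/
theorem free_interior_closure {V : Set X} (hV : IsOpen V) (h : ∀ x ∈ V, ∀ y ∈ V, dist x y ≠ 1) :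
    ∀ x ∈ interior (closure V), ∀ y ∈ interior (closure V), dist x y ≠ 1 := by
  intro x hx y hy hxy
  obtain ⟨ε, hε, hball⟩ := Metric.isOpen_iff.1 isOpen_interior y hy
  -- move `x` into `V`
  obtain ⟨x', hx', hxx⟩ := Metric.mem_closure_iff.1 (interior_subset hx) ε hε
  have hy' : y + (x' - x) ∈ closure V := by
    refine interior_subset (hball ?_)
    rw [mem_ball, dist_eq_norm, add_sub_cancel_left, ← dist_eq_norm, dist_comm]
    exact hxx
  obtain ⟨δ, hδ, hball2⟩ := Metric.isOpen_iff.1 hV x' hx'
  obtain ⟨y'', hy'', hyy⟩ := Metric.mem_closure_iff.1 hy' δ hδ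
  refine h (x' + (y'' - (y + (x' - x)))) (hball2 ?_) y'' hy'' ?_
  · rw [mem_ball, dist_eq_norm, add_sub_cancel_left, ← dist_eq_norm, dist_comm]
    exact hyy
  · rw [← hxy, dist_eq_norm, dist_eq_norm]
    congr 1
    abel

variable {c : X → Fin n}

/-- the closed cover of a regular proper colouring -/
theorem cover_of_colouring (hreg : ∀ x, x ∈ closure (interior (c ⁻¹' {c x}))) :
    (⋃ i, closure (interior (c ⁻¹' {i}))) = univ :=
  eq_univ_of_forall fun x => mem_iUnion.2 ⟨c x, hreg x⟩

theorem free_of_colouring (hc : ∀ x y, dist x y = 1 → c x ≠ c y) (i : Fin n) :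
    ∀ x ∈ interior (closure (interior (c ⁻¹' {i}))),
      ∀ y ∈ interior (closure (interior (c ⁻¹' {i}))), dist x y ≠ 1 := by
  refine free_interior_closure isOpen_interior ?_
  intro x hx y hy hxy
  have h1 : x ∈ c ⁻¹' {i} := interior_subset hx
  have h2 : y ∈ c ⁻¹' {i} := interior_subset hy
  rw [mem_preimage, mem_singleton_iff] at h1 h2
  exact hc x y hxy (h1.trans h2.symm)

end Vale.Agent.P032.ND
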