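import Mathlib
import Vale.Agent.P032.Six.Max
import Vale.Agent.P032.Six.Geo
import Vale.Agent.P032.Six.Gap

/-!
# P032: covers by six closed sets without unit double arcs have order at most three

`Fr U`: the closures of the open sets `U i` cover the plane, `U i` is the interior of its
closure, and no point of `U i` is at distance one from a point of the closure of `U i`.
`NoArc U`: no arc of a unit circle lies in the closures of two different `U i`, `U j` which both
contain the centre. Under these hypotheses a point of the plane lies in at most three of the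
six closures.
-/

open Set Filter Topology Metric

noncomputable section

namespace Vale.Agent.P032.ND

open Vale.Agent.P032.Six

variable {k : ℕ} {U : Fin k → Set ℂ} {D : Set ℂ}

/-- closed covers without unit distance between interior points and points of the same colour -/
structure Fr {k : ℕ} (U : Fin k → Set ℂ) : Prop where
  cover : ∀ x, ∃ i, i ∈ Pal U x
  free : ∀ i, ∀ x ∈ U i, ∀ y ∈ closure (U i), dist x y ≠ 1
  int : ∀ i, interior (closure (U i)) = U i

/-- no unit double arc with centre in `D` -/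
def NoArc {k : ℕ} (U : Fin k → Set ℂ) (D : Set ℂ) : Prop :=
  ∀ i j, i ≠ j → ∀ z ∈ D, ∀ p : ℂ, i ∈ Pal U z → j ∈ Pal U z → dist p z = 1 →
    ¬ ∀ᶠ q in 𝓝[sphere z 1] p, i ∈ Pal U q ∧ j ∈ Pal U q

theorem Fr.notMem (h : Fr U) {i : Fin k} {x y : ℂ} (hy : i ∈ Pal U y)
    (hxy : dist x y = 1) : x ∉ U i :=
  fun hx => h.free i x hx y hy hxy

theorem Fr.mem_of_pal (h : Fr U) {i : Fin k} {x : ℂ} (hx : Pal U x ⊆ {i}) : x ∈ U i := by
  rw [← h.int i, mem_interior_iff_mem_nhds]
  filter_upwards [pal_nhd U x] with z hz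
  obtain ⟨j, hj⟩ := h.cover z
  have : j = i := by simpa using hx (hz hj)
  exact this ▸ hj

/-- `(W)` -/
theorem Fr.wlemma (h : Fr U) {i : Fin k} {Q : Set ℂ} (hQ : IsPreconnected Q)
    (hQF : Q ⊆ closure (U i)) {z a b : ℂ} (ha : a ∈ Q) (hb : b ∈ Q) (ha1 : dist a z < 1)
    (hb1 : 1 < dist b z) : i ∉ Pal U z := by
  intro hz
  obtain ⟨z', hz', hzz⟩ := Metric.mem_closure_iff.1 hz (min (1 - dist a z) (dist b z - 1))
    (lt_min (by linarith) (by linarith))
  have h1 : dist a z' < 1 := by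
    have := dist_triangle a z z'
    have := lt_of_lt_of_le hzz (min_le_left _ _)
    linarith
  have h2 : 1 < dist b z' := by
    have := dist_triangle b z' z
    have := lt_of_lt_of_le hzz (min_le_right _ _)
    rw [dist_comm z z'] at this
    linarith
  have hc : ContinuousOn (fun q => dist q z') Q := by fun_prop
  obtain ⟨q, hq, hq1⟩ := hQ.intermediate_value ha hb hc ⟨h1.le, h2.le⟩
  exact h.free i z' hz' q (hQF hq) (by rw [dist_comm]; exact hq1)

/-- an arc of one colour through `p` on the circle about `u` -/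
theorem Fr.partner_line (h : Fr U) {u p v : ℂ} {t : Fin k} (hup : dist p u = 1)
    (hJ : ∀ᶠ q in 𝓝[sphere u 1] p, t ∈ Pal U q) (hv : dist p v = 1) (htv : t ∈ Pal U v) :
    v = u ∨ v + u = 2 * p := by
  by_contra hcon
  push Not at hcon
  obtain ⟨hne, hne2⟩ := hcon
  obtain ⟨θ, hθ⟩ := exists_cis (u := p - u) (by rw [← dist_eq_norm]; exact hup)
  have hpθ : u + cis θ = p := by rw [← hθ]; ring
  obtain ⟨s, hs, hsub⟩ := mem_nhdsWithin_iff_exists_mem_nhds_inter.1 hJ
  have hc : ContinuousAt (fun t => u + cis t) θ :=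
    (continuous_const.add continuous_cis).continuousAt
  have hpre : (fun t => u + cis t) ⁻¹' s ∈ 𝓝 θ := hc.preimage_mem_nhds (by rw [hpθ]; exact hs)
  obtain ⟨η, hη, hball⟩ := Metric.mem_nhds_iff.1 hpre
  have hcr : cr (cis θ) (u + cis θ - v) ≠ 0 := by
    rw [hpθ, ← hθ]
    exact cr_ne hup hv hne.symm (by rw [add_comm]; exact hne2)
  obtain ⟨t1, t2, h1, h2, h3, h4⟩ := circle_signs (c := u) (q := v) (t0 := θ)
    (by rw [hpθ]; exact hv) hcr hη
  have hQ : IsPreconnected ((fun t => u + cis t) '' ball θ η) :=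
    (convex_ball θ η).isPreconnected.image _
      (continuous_const.add continuous_cis).continuousOn
  have hm1 : t1 ∈ ball θ η := by rw [mem_ball, Real.dist_eq]; exact h1
  have hm2 : t2 ∈ ball θ η := by rw [mem_ball, Real.dist_eq]; exact h2
  refine h.wlemma (i := t) hQ ?_ (z := v) ⟨t1, hm1, rfl⟩ ⟨t2, hm2, rfl⟩ h3 h4 htv
  rintro _ ⟨r, hr, rfl⟩
  exact hsub ⟨hball hr, dist_add_cis u r⟩

/-- **(A)**: palettes are not contained at distance one -/
theorem Fr.not_sub (h : Fr U) (hN : NoArc U D) {x y : ℂ} (hx : x ∈ D) (hxy : dist y x = 1) :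
    ¬ Pal U y ⊆ Pal U x := by
  intro hsub
  have hyS : y ∈ sphere x (1 : ℝ) := hxy
  obtain ⟨q, ⟨hq1, hq2⟩, hq3⟩ := exists_const U hyS (pal_nhd U y)
  have hq1 : Pal U q ⊆ Pal U y := hq1
  have hqx : dist q x = 1 := hq2
  have hqsub : Pal U q ⊆ Pal U x := hq1.trans hsub
  obtain ⟨i, hi⟩ := h.cover q
  have hj : ∃ j ∈ Pal U q, j ≠ i := by
    by_contra hcon
    push Not at hcon
    have h1 : q ∈ U i := h.mem_of_pal fun j hj => by simpa using hcon j hj
    exact h.notMem (hqsub hi) hqx h1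
  obtain ⟨j, hj, hji⟩ := hj
  refine hN j i hji x hx q (hqsub hj) (hqsub hi) hqx ?_
  filter_upwards [hq3] with q' hq'
  rw [hq']
  exact ⟨hj, hi⟩

theorem exists_sphere (x : ℂ) : x + 1 ∈ sphere x (1 : ℝ) := by
  rw [mem_sphere, dist_eq_norm, add_sub_cancel_left]; simp

/-- a unit circle is not contained in one colour -/
theorem Fr.not_circle (h : Fr U) (x : ℂ) (f : Fin k) : ¬ ∀ y, dist y x = 1 → f ∈ Pal U y := by
  intro hall
  have hQ : IsPreconnected (sphere x (1 : ℝ)) := isPreconnected_sphere (by simp) x 1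
  have h1 := exists_sphere x
  have h2 : x - 1 ∈ sphere x (1 : ℝ) := by
    rw [mem_sphere, dist_eq_norm]; simp
  refine h.wlemma (i := f) hQ (fun y hy => hall y hy) h1 h2 (z := x + 1) ?_ ?_ (hall _ h1)
  · rw [dist_self]; norm_num
  · rw [dist_eq_norm]
    have : x - 1 - (x + 1) = -2 := by ring
    rw [this]; simp

/-- at most four colours (`k = 6`): no point misses at most one colour -/
theorem Fr.no_five (h : Fr U) (hN : NoArc U D) {x : ℂ} (hx : x ∈ D) (f : Fin k) : ∃ m, m ≠ f ∧ m ∉ Pal U x := by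
  by_contra hcon
  push Not at hcon
  refine h.not_circle x f fun y hy => ?_
  by_contra hf
  refine h.not_sub hN hx hy fun m hm => hcon m ?_
  rintro rfl
  exact hf hm

/-! ### points with exactly four colours -/

variable {V : Fin 6 → Set ℂ}

/-- the palette of `z` is the complement of `{e, f}` -/
def Miss (V : Fin 6 → Set ℂ) (z : ℂ) (e f : Fin 6) : Prop :=
  e ≠ f ∧ ∀ m, m ∈ Pal V z ↔ (m ≠ e ∧ m ≠ f)

/-- rotation by a primitive sixth root of unity -/
theorem rot_ne {z y w : ℂ} (hw : w ^ 2 = w - 1) (hyz : y ≠ z) : y + z ≠ 2 * (z + w * (y - z)) := by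
  intro h
  have h1 : (y - z) * (1 - 2 * w) = 0 := by linear_combination h
  rcases mul_eq_zero.1 h1 with h2 | h2
  · exact hyz (by linear_combination h2)
  · have h3 : w = 1 / 2 := by linear_combination -(1 / 2 : ℂ) * h2
    rw [h3] at hw
    norm_num at hw

theorem norm_rot {w : ℂ} (hw : w ^ 2 = w - 1) : ‖w‖ = 1 := by
  have h3 : w ^ 6 = 1 := by
    have : w ^ 3 = -1 := by linear_combination (w + 1) * hw
    linear_combination (w ^ 3 - 1) * this
  have h4 : ‖w‖ ^ 6 = 1 := by rw [← norm_pow, h3]; simp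
  exact (pow_eq_one_iff_of_nonneg (norm_nonneg w) (by norm_num)).1 h4

theorem norm_rot' {w : ℂ} (hw : w ^ 2 = w - 1) : ‖w - 1‖ = 1 := by
  rw [← hw, norm_pow, norm_rot hw]; norm_num

theorem dist_rot {z y w : ℂ} (hw : w ^ 2 = w - 1) (hyz : dist y z = 1) :
    dist (z + w * (y - z)) z = 1 := by
  rw [dist_eq_norm, add_sub_cancel_left, norm_mul, norm_rot hw, one_mul, ← dist_eq_norm, hyz]

theorem dist_rot' {z y w : ℂ} (hw : w ^ 2 = w - 1) (hyz : dist y z = 1) :
    dist (z + w * (y - z)) y = 1 := by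
  have : z + w * (y - z) - y = (w - 1) * (y - z) := by ring
  rw [dist_eq_norm, this, norm_mul, norm_rot' hw, one_mul, ← dist_eq_norm, hyz]

/-- the set of points of the circle with both missing colours is invariant under rotation -/
theorem sixty (h : Fr V) (hN : NoArc V D) {z y w : ℂ} (hzD : z ∈ D) {e f : Fin 6} (hz : Miss V z e f)
    (hw : w ^ 2 = w - 1) (hyz : dist y z = 1) (he : e ∈ Pal V y) (hf : f ∈ Pal V y) :
    f ∈ Pal V (z + w * (y - z)) := by
  by_contra hcon
  set y' := z + w * (y - z) with hy'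
  have hne : y ≠ z := by rintro rfl; simp at hyz
  have hJ : ∀ᶠ q in 𝓝[sphere z 1] y', e ∈ Pal V q := by
    filter_upwards [mem_nhdsWithin_of_mem_nhds (pal_nhd V y'), self_mem_nhdsWithin] with q h1 h2
    by_contra hq
    refine h.not_sub hN hzD (y := q) h2 fun m hm => (hz.2 m).2 ⟨?_, ?_⟩
    · rintro rfl; exact hq hm
    · rintro rfl; exact hcon (h1 hm)
  rcases h.partner_line (u := z) (p := y') (t := e) (v := y) (dist_rot hw hyz) hJ
    (dist_rot' hw hyz) he with h1 | h1
  · exact hne h1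
  · exact rot_ne hw hne h1

theorem Miss.symm {z : ℂ} {e f : Fin 6} (hz : Miss V z e f) : Miss V z f e :=
  ⟨hz.1.symm, fun m => by rw [hz.2 m]; exact and_comm⟩

/-- at least two colours are new at a rotated point -/
theorem two_new (h : Fr V) (hN : NoArc V D) {z y y' : ℂ} (hyD : y ∈ D) {e f : Fin 6} (hz : Miss V z e f)
    (hyz : dist y z = 1) (hyz' : dist y' z = 1) (hyy : dist y' y = 1) (he : e ∈ Pal V y)
    (hf : f ∈ Pal V y) (hline : y + z ≠ 2 * y') (t : Fin 6) :
    ¬ Pal V y' ⊆ insert t (Pal V y) := by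
  intro hsub
  have ht : t ∈ Pal V y' ∧ t ∉ Pal V y := by
    by_contra hcon
    refine h.not_sub hN hyD hyy fun m hm => ?_
    rcases hsub hm with h1 | h1
    · by_contra h2
      exact hcon ⟨h1 ▸ hm, h1 ▸ h2⟩
    · exact h1
  have htz : t ∈ Pal V z := (hz.2 t).2 ⟨by rintro rfl; exact ht.2 he, by rintro rfl; exact ht.2 hf⟩
  have hJ : ∀ᶠ q in 𝓝[sphere y 1] y', t ∈ Pal V q := by
    filter_upwards [mem_nhdsWithin_of_mem_nhds (pal_nhd V y'), self_mem_nhdsWithin] with q h1 h2
    by_contra hq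
    refine h.not_sub hN hyD (y := q) h2 fun m hm => ?_
    rcases hsub (h1 hm) with h3 | h3
    · exact absurd (h3 ▸ hm) hq
    · exact h3
  rcases h.partner_line (u := y) (p := y') (t := t) (v := z) hyy hJ hyz' htz with h1 | h1
  · rw [h1] at hyz; simp at hyz
  · exact hline (by rw [add_comm]; exact h1)

open Classical in
/-- finite combinatorics of the two palettes -/
theorem fin_alt (A B : Finset (Fin 6)) (e f : Fin 6) (hef : e ≠ f) (heA : e ∈ A) (hfA : f ∈ A)
    (heB : e ∈ B) (hfB : f ∈ B) (hA4 : A.card ≤ 4)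
    (hBA : ∀ t, ¬ B ⊆ insert t A) (hAB : ∀ t, ¬ A ⊆ insert t B) (m : Fin 6) (hme : m ≠ e)
    (hmf : m ≠ f) : m ∈ A ↔ m ∉ B := by
  have key : ∀ A B : Finset (Fin 6), e ∈ A → f ∈ A → (∀ t, ¬ A ⊆ insert t B) →
      2 ≤ (A \ B).card := by
    intro A B _ _ hAB
    by_contra hcon
    have h1 : (A \ B).card ≤ 1 := by omega
    rcases Finset.card_le_one_iff_subset_singleton.1 h1 with ⟨t, ht⟩
    refine hAB t fun x hx => ?_
    by_cases hxB : x ∈ B
    · exact Finset.mem_insert_of_mem hxB
    · have := ht (Finset.mem_sdiff.2 ⟨hx, hxB⟩)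
      rw [Finset.mem_singleton] at this
      rw [this]; exact Finset.mem_insert_self _ _
  have k1 := key A B heA hfA hAB
  have k2 := key B A heB hfB hBA
  constructor
  · intro hmA hmB
    -- `A ∩ B` has three elements
    have h3 : ({e, f, m} : Finset (Fin 6)) ⊆ A ∩ B := by
      intro x hx
      simp only [Finset.mem_insert, Finset.mem_singleton] at hx
      rcases hx with rfl | rfl | rfl <;> simp [*]
    have h4 : ({e, f, m} : Finset (Fin 6)).card = 3 := by
      rw [Finset.card_insert_of_notMem, Finset.card_insert_of_notMem, Finset.card_singleton]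
      · simpa using hmf.symm
      · simp only [Finset.mem_insert, Finset.mem_singleton, not_or]
        exact ⟨hef, hme.symm⟩
    have h5 := Finset.card_le_card h3
    have h6 := Finset.card_sdiff_add_card_inter A B
    omega
  · intro hmB
    by_contra hmA
    have h3 : Disjoint (A \ B) (B \ A) := by
      rw [Finset.disjoint_left]
      intro x hx hx'
      exact (Finset.mem_sdiff.1 hx').2 (Finset.mem_sdiff.1 hx).1
    have h4 : (A \ B) ∪ (B \ A) ⊆ Finset.univ \ {e, f, m} := by
      intro x hx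
      simp only [Finset.mem_union, Finset.mem_sdiff] at hx
      simp only [Finset.mem_sdiff, Finset.mem_univ, true_and, Finset.mem_insert,
        Finset.mem_singleton, not_or]
      refine ⟨?_, ?_, ?_⟩ <;> rintro rfl <;> tauto
    have h5 := Finset.card_le_card h4
    rw [Finset.card_union_of_disjoint h3] at h5
    have h6 : ({e, f, m} : Finset (Fin 6)).card = 3 := by
      rw [Finset.card_insert_of_notMem, Finset.card_insert_of_notMem, Finset.card_singleton]
      · simpa using hmf.symm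
      · simp only [Finset.mem_insert, Finset.mem_singleton, not_or]
        exact ⟨hef, hme.symm⟩
    have h7 : (Finset.univ \ {e, f, m} : Finset (Fin 6)).card = 3 := by
      rw [Finset.card_sdiff_of_subset (Finset.subset_univ _), h6]; simp
    omega

/-- the palette has at most four elements -/
theorem ncard_le_four (h : Fr V) (hN : NoArc V D) {x : ℂ} (hx : x ∈ D) :
    (Pal V x).ncard ≤ 4 := by
  obtain ⟨m, -, hm⟩ := h.no_five hN hx 0
  obtain ⟨m', hm', hm2⟩ := h.no_five hN hx m
  have h1 : Pal V x ⊆ ({m, m'} : Set (Fin 6))ᶜ := by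
    intro i hi hcon
    rcases hcon with rfl | hcon
    · exact hm hi
    · rw [mem_singleton_iff] at hcon
      exact hm2 (hcon ▸ hi)
  have h2 := Set.ncard_le_ncard h1 (Set.toFinite _)
  have h3 : ({m, m'} : Set (Fin 6)).ncard = 2 := Set.ncard_pair hm'.symm
  have h4 := Set.ncard_add_ncard_compl ({m, m'} : Set (Fin 6))
  rw [h3, Nat.card_eq_fintype_card, Fintype.card_fin] at h4
  omega

open Classical in
/-- palettes alternate under rotation -/
theorem alt (h : Fr V) (hN : NoArc V D) {z y w : ℂ} (hzD : z ∈ D) (hyD : y ∈ D)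
    (hyD' : z + w * (y - z) ∈ D) {e f : Fin 6} (hz : Miss V z e f)
    (hw : w ^ 2 = w - 1) (hyz : dist y z = 1) (he : e ∈ Pal V y) (hf : f ∈ Pal V y)
    (m : Fin 6) (hme : m ≠ e) (hmf : m ≠ f) :
    m ∈ Pal V y ↔ m ∉ Pal V (z + w * (y - z)) := by
  have hne : y ≠ z := by rintro rfl; simp at hyz
  set y' := z + w * (y - z) with hy'
  have hyz' : dist y' z = 1 := dist_rot hw hyz
  have hyy : dist y' y = 1 := dist_rot' hw hyz
  have hf' : f ∈ Pal V y' := sixty h hN hzD hz hw hyz he hf
  have he' : e ∈ Pal V y' := sixty h hN hzD hz.symm hw hyz hf he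
  set A : Finset (Fin 6) := Finset.univ.filter fun i => i ∈ Pal V y with hA
  set B : Finset (Fin 6) := Finset.univ.filter fun i => i ∈ Pal V y' with hB
  have hAc : (A : Set (Fin 6)) = Pal V y := by ext; simp [hA]
  have hBc : (B : Set (Fin 6)) = Pal V y' := by ext; simp [hB]
  have hA4 : A.card ≤ 4 := by
    rw [← Set.ncard_coe_finset, hAc]; exact ncard_le_four h hN hyD
  have hB4 : B.card ≤ 4 := by
    rw [← Set.ncard_coe_finset, hBc]; exact ncard_le_four h hN hyD'
  have hl1 : y + z ≠ 2 * y' := rot_ne hw hne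
  have hl2 : y' + z ≠ 2 * y := by
    intro h1
    have h2 : (y - z) * (w - 2) = 0 := by rw [hy'] at h1; linear_combination h1
    rcases mul_eq_zero.1 h2 with h3 | h3
    · exact hne (by linear_combination h3)
    · have h4 : w = 2 := by linear_combination h3
      rw [h4] at hw; norm_num at hw
  have hBA : ∀ t, ¬ B ⊆ insert t A := by
    intro t hsub
    refine two_new h hN hyD hz hyz hyz' hyy he hf hl1 t fun i hi => ?_
    have h1 : i ∈ B := by simp [hB, hi]
    have h2 := hsub h1
    rw [Finset.mem_insert] at h2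
    rcases h2 with h2 | h2
    · exact Or.inl h2
    · exact Or.inr (by simpa [hA] using h2)
  have hAB : ∀ t, ¬ A ⊆ insert t B := by
    intro t hsub
    refine two_new h hN hyD' hz hyz' hyz (by rw [dist_comm]; exact hyy) he' hf' hl2 t fun i hi => ?_
    have h1 : i ∈ A := by simp [hA, hi]
    have h2 := hsub h1
    rw [Finset.mem_insert] at h2
    rcases h2 with h2 | h2
    · exact Or.inl h2
    · exact Or.inr (by simpa [hB] using h2)
  have := fin_alt A B e f hz.1 (by simp [hA, he]) (by simp [hA, hf]) (by simp [hB, he'])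
    (by simp [hB, hf']) hA4 hBA hAB m hme hmf
  simpa [hA, hB] using this

/-! ### the contradiction at a point with exactly four colours -/

theorem cis_re (t : ℝ) : (cis t).re = Real.cos t := by
  rw [cis, Complex.exp_ofReal_mul_I_re]

theorem cis_im (t : ℝ) : (cis t).im = Real.sin t := by
  rw [cis, Complex.exp_ofReal_mul_I_im]

theorem cis_add' (s t : ℝ) : cis (s + t) = cis s * cis t := by
  rw [cis, cis, cis, ← Complex.exp_add]; congr 1; push_cast; ring

theorem cis_period (t : ℝ) (n : ℤ) : cis (t + n * (2 * Real.pi)) = cis t := by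
  rw [cis, cis]
  have : ((t + n * (2 * Real.pi) : ℝ) : ℂ) * Complex.I =
      (t : ℂ) * Complex.I + n * (2 * Real.pi * Complex.I) := by push_cast; ring
  rw [this, Complex.exp_add, Complex.exp_int_mul_two_pi_mul_I, mul_one]

theorem cis_sixth : cis (-(Real.pi / 3)) ^ 2 = cis (-(Real.pi / 3)) - 1 := by
  have h3 : (Real.sqrt 3) ^ 2 = 3 := Real.sq_sqrt (by norm_num)
  apply Complex.ext
  · rw [pow_two, Complex.mul_re, Complex.sub_re, cis_re, cis_im, Real.cos_neg, Real.sin_neg,
      Real.cos_pi_div_three, Real.sin_pi_div_three, Complex.one_re]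
    nlinarith
  · rw [pow_two, Complex.mul_im, Complex.sub_im, cis_re, cis_im, Real.cos_neg, Real.sin_neg,
      Real.cos_pi_div_three, Real.sin_pi_div_three, Complex.one_im]
    ring

/-- a chord of angle less than sixty degrees is shorter than one -/
theorem chord_lt (z : ℂ) {s t : ℝ} (h0 : 0 < t - s) (h1 : t - s < Real.pi / 3) :
    dist (z + cis t) (z + cis s) < 1 := by
  rw [dist_lt_one_iff]
  have e1 : (z + cis t).re - (z + cis s).re = Real.cos t - Real.cos s := by
    simp [cis_re]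
  have e2 : (z + cis t).im - (z + cis s).im = Real.sin t - Real.sin s := by
    simp [cis_im]
  rw [e1, e2]
  have h2 : Real.cos (Real.pi / 3) < Real.cos (t - s) :=
    Real.cos_lt_cos_of_nonneg_of_le_pi h0.le (by have := Real.pi_pos; linarith) h1
  rw [Real.cos_pi_div_three, Real.cos_sub] at h2
  have h3 := Real.sin_sq_add_cos_sq t
  have h4 := Real.sin_sq_add_cos_sq s
  nlinarith

/-- a unit circle outside tangent to another one at `y` -/
theorem tangent_gt {y y1 q : ℂ} (h1 : dist y y1 = 1) (hq : dist q (2 * y - y1) = 1)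
    (hne : q ≠ y) : 1 < dist q y1 := by
  rw [one_lt_dist_iff]
  have e1 := (dist_eq_one_iff _ _).1 h1
  have e2 := (dist_eq_one_iff _ _).1 hq
  have e3 : (2 * y - y1).re = 2 * y.re - y1.re := by simp
  have e4 : (2 * y - y1).im = 2 * y.im - y1.im := by simp
  rw [e3, e4] at e2
  have h5 : 0 < (q.re - y.re) ^ 2 + (q.im - y.im) ^ 2 := by
    by_contra hcon
    have h6 : (q.re - y.re) ^ 2 + (q.im - y.im) ^ 2 = 0 :=
      le_antisymm (not_lt.1 hcon) (by positivity)
    have h7 : q.re - y.re = 0 := by nlinarith [sq_nonneg (q.re - y.re), sq_nonneg (q.im - y.im)]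
    have h8 : q.im - y.im = 0 := by nlinarith [sq_nonneg (q.re - y.re), sq_nonneg (q.im - y.im)]
    exact hne (Complex.ext (by linarith) (by linarith))
  nlinarith

/-- a point with both missing colours on every circle about a four-coloured point -/
theorem exists_both (h : Fr V) (hN : NoArc V D) {z : ℂ} (hzD : z ∈ D) {e f : Fin 6} (hz : Miss V z e f) :
    ∃ y, dist y z = 1 ∧ e ∈ Pal V y ∧ f ∈ Pal V y := by
  have hor : ∀ y, dist y z = 1 → e ∈ Pal V y ∨ f ∈ Pal V y := by
    intro y hy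
    by_contra hcon
    push Not at hcon
    refine h.not_sub hN hzD hy fun m hm => (hz.2 m).2 ⟨?_, ?_⟩
    · rintro rfl; exact hcon.1 hm
    · rintro rfl; exact hcon.2 hm
  have hQ : IsPreconnected (sphere z (1 : ℝ)) := isPreconnected_sphere (by simp) z 1
  have ne1 : (sphere z 1 ∩ closure (V e)).Nonempty := by
    by_contra hcon
    refine h.not_circle z f fun y hy => (hor y hy).resolve_left fun hy2 => hcon ⟨y, hy, hy2⟩
  have ne2 : (sphere z 1 ∩ closure (V f)).Nonempty := by
    by_contra hcon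
    refine h.not_circle z e fun y hy => (hor y hy).resolve_right fun hy2 => hcon ⟨y, hy, hy2⟩
  obtain ⟨y, hy, hy1, hy2⟩ := isPreconnected_closed_iff.1 hQ _ _ isClosed_closure isClosed_closure
    (fun y hy => hor y hy) ne1 ne2
  exact ⟨y, hy, hy1, hy2⟩

/-- an arc of pure colour `f` ending at a point with both colours -/
theorem exists_pure (h : Fr V) (hN : NoArc V D) {z : ℂ} (hzD : z ∈ D) {e f : Fin 6} (hz : Miss V z e f)
    {θ₀ : ℝ} (he0 : e ∉ Pal V (z + cis θ₀)) :
    ∃ θ₁, θ₀ < θ₁ ∧ e ∈ Pal V (z + cis θ₁) ∧ f ∈ Pal V (z + cis θ₁) ∧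
      ∀ θ ∈ Icc θ₀ θ₁, f ∈ Pal V (z + cis θ) := by
  have hor : ∀ θ, e ∈ Pal V (z + cis θ) ∨ f ∈ Pal V (z + cis θ) := by
    intro θ
    by_contra hcon
    push Not at hcon
    refine h.not_sub hN hzD (dist_add_cis z θ) fun m hm => (hz.2 m).2 ⟨?_, ?_⟩
    · rintro rfl; exact hcon.1 hm
    · rintro rfl; exact hcon.2 hm
  have hcont : Continuous fun θ : ℝ => z + cis θ := continuous_const.add continuous_cis
  have hclE : IsClosed {θ : ℝ | e ∈ Pal V (z + cis θ)} := isClosed_closure.preimage hcont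
  have hclF : IsClosed {θ : ℝ | f ∈ Pal V (z + cis θ)} := isClosed_closure.preimage hcont
  set S : Set ℝ := Ici θ₀ ∩ ({θ : ℝ | e ∈ Pal V (z + cis θ)} ∩
    {θ : ℝ | f ∈ Pal V (z + cis θ)}) with hS
  have hScl : IsClosed S := isClosed_Ici.inter (hclE.inter hclF)
  have hSne : S.Nonempty := by
    obtain ⟨y, hy, hy1, hy2⟩ := exists_both h hN hzD hz
    obtain ⟨t, ht⟩ := exists_cis (u := y - z) (by rw [← dist_eq_norm]; exact hy)
    have hyt : z + cis t = y := by rw [← ht]; ring
    obtain ⟨n, hn⟩ := exists_nat_gt ((θ₀ - t) / (2 * Real.pi))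
    have hpi : 0 < 2 * Real.pi := by have := Real.pi_pos; linarith
    rw [div_lt_iff₀ hpi] at hn
    have hc : cis (t + ((n : ℤ) : ℝ) * (2 * Real.pi)) = cis t := cis_period t n
    refine ⟨t + ((n : ℤ) : ℝ) * (2 * Real.pi), ?_, ?_, ?_⟩
    · rw [mem_Ici]; push_cast; linarith
    · show e ∈ Pal V _
      rw [hc, hyt]; exact hy1
    · show f ∈ Pal V _
      rw [hc, hyt]; exact hy2
  have hSb : BddBelow S := ⟨θ₀, fun θ hθ => hθ.1⟩
  have hmem := hScl.csInf_mem hSne hSb
  set θ₁ := sInf S with hθ₁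
  have hlt : θ₀ < θ₁ := by
    refine lt_of_le_of_ne hmem.1 fun heq => ?_
    exact he0 (heq ▸ hmem.2.1)
  have hno : ∀ θ ∈ Ico θ₀ θ₁, ¬ (e ∈ Pal V (z + cis θ) ∧ f ∈ Pal V (z + cis θ)) := by
    intro θ hθ hcon
    exact absurd (csInf_le hSb ⟨hθ.1, hcon.1, hcon.2⟩) (not_le.2 hθ.2)
  have hf0 : f ∈ Pal V (z + cis θ₀) := (hor θ₀).resolve_left he0
  have hE : ∀ θ ∈ Ico θ₀ θ₁, e ∉ Pal V (z + cis θ) := by
    intro θ hθ hcon
    obtain ⟨x, hx, hx1, hx2⟩ := isPreconnected_closed_iff.1 (isPreconnected_Ico (a := θ₀)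
      (b := θ₁)) _ _ hclE hclF (fun x _ => hor x) ⟨θ, hθ, hcon⟩
      ⟨θ₀, ⟨le_rfl, hlt⟩, hf0⟩
    exact hno x hx ⟨hx1, hx2⟩
  refine ⟨θ₁, hlt, hmem.2.1, hmem.2.2, fun θ hθ => ?_⟩
  rcases lt_or_eq_of_le hθ.2 with h1 | h1
  · exact (hor θ).resolve_left (hE θ ⟨hθ.1, h1⟩)
  · rw [h1]; exact hmem.2.2

/-- **no point has exactly four colours** -/
theorem no_four (h : Fr V) (hN : NoArc V D) {z : ℂ} (hD : closedBall z 2 ⊆ D) {e f : Fin 6}
    (hz : Miss V z e f) : False := by
  have hzD : z ∈ D := hD (mem_closedBall_self (by norm_num))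
  have hD1 : ∀ y, dist y z = 1 → y ∈ D := fun y hy => hD (by rw [mem_closedBall, hy]; norm_num)
  have hD2 : ∀ y y', dist y z = 1 → dist y' y = 1 → y' ∈ D := fun y y' hy hy' => hD (by
    rw [mem_closedBall]
    have := dist_triangle y' y z
    linarith)
  -- a point of the circle without `e`
  obtain ⟨y, hy, hye⟩ : ∃ y, dist y z = 1 ∧ e ∉ Pal V y := by
    by_contra hcon
    push Not at hcon
    exact h.not_circle z e hcon
  obtain ⟨θ₀, hθ₀⟩ := exists_cis (u := y - z) (by rw [← dist_eq_norm]; exact hy)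
  have hyθ : z + cis θ₀ = y := by rw [← hθ₀]; ring
  obtain ⟨θ₁, hlt, he1, hf1, harc⟩ := exists_pure h hN hzD hz (θ₀ := θ₀) (by rw [hyθ]; exact hye)
  set w := cis (-(Real.pi / 3)) with hw
  have hw2 : w ^ 2 = w - 1 := cis_sixth
  set y1 := z + cis θ₁ with hy1
  have hy1z : dist y1 z = 1 := dist_add_cis z θ₁
  set y0 := z + w * (y1 - z) with hy0
  have hy0z : dist y0 z = 1 := dist_rot hw2 hy1z
  have hy01 : dist y0 y1 = 1 := dist_rot' hw2 hy1z
  have he0 : e ∈ Pal V y0 := sixty h hN hzD hz.symm hw2 hy1z hf1 he1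
  have hf0 : f ∈ Pal V y0 := sixty h hN hzD hz hw2 hy1z he1 hf1
  set y5 := z + w * (y0 - z) with hy5
  have hy5z : dist y5 z = 1 := dist_rot hw2 hy0z
  have hy50 : dist y5 y0 = 1 := dist_rot' hw2 hy0z
  have he5 : e ∈ Pal V y5 := sixty h hN hzD hz.symm hw2 hy0z hf0 he0
  have hρ : y1 - z ≠ 0 := by
    intro h1
    rw [dist_eq_norm, h1] at hy1z
    simp at hy1z
  have hy0θ : y0 = z + cis (θ₁ - Real.pi / 3) := by
    rw [hy0, hy1, add_sub_cancel_left, hw, ← cis_add']
    congr 2; ring
  -- near `y0` outside the disc about `y1` there is no `f`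
  have hfree : ∀ᶠ x in 𝓝 y0, 1 < dist x y1 → f ∉ Pal V x := by
    set θw := max θ₀ (θ₁ - 1 / 2) with hθw
    have hwlt : θw < θ₁ := max_lt hlt (by linarith)
    have hwge : θ₀ ≤ θw := le_max_left _ _
    have hwge2 : θ₁ - 1 / 2 ≤ θw := le_max_right _ _
    have hpi := Real.pi_gt_three
    have hd : dist (z + cis θw) y0 < 1 := by
      rw [hy0θ]
      exact chord_lt z (by linarith) (by linarith)
    have hev : ∀ᶠ x in 𝓝 y0, dist (z + cis θw) x < 1 :=
      (continuous_const.dist continuous_id).continuousAt.eventually (Iio_mem_nhds hd)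
    filter_upwards [hev] with x hx hx1
    have hQ : IsPreconnected ((fun t => z + cis t) '' Icc θ₀ θ₁) :=
      isPreconnected_Icc.image _ (continuous_const.add continuous_cis).continuousOn
    refine h.wlemma (i := f) hQ ?_ (z := x) (a := z + cis θw) (b := y1)
      ⟨θw, ⟨hwge, hwlt.le⟩, rfl⟩ ⟨θ₁, ⟨hlt.le, le_rfl⟩, rfl⟩ hx (by rw [dist_comm]; exact hx1)
    rintro _ ⟨t, ht, rfl⟩
    exact harc t ht
  -- the palette of `p = 2 y0 - y1` is that of `z`
  set p := 2 * y0 - y1 with hp
  have hyp : dist y0 p = 1 := by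
    have : y0 - p = -(y0 - y1) := by rw [hp]; ring
    rw [dist_eq_norm, this, norm_neg, ← dist_eq_norm, hy01]
  have hPp : e ∉ Pal V p ∧ f ∉ Pal V p ∧ ∀ m, m ≠ e → m ≠ f → m ∈ Pal V p := by
    -- the missing pair of `y0`
    obtain ⟨c, c', hcc, hmiss⟩ : ∃ c c', c ≠ c' ∧ ∀ m, m ∈ Pal V y0 ↔ (m ≠ c ∧ m ≠ c') := by
      obtain ⟨c, -, hc⟩ := h.no_five hN (hD1 y0 hy0z) 0
      obtain ⟨c', hc'c, hc'⟩ := h.no_five hN (hD1 y0 hy0z) c
      refine ⟨c, c', hc'c.symm, fun m => ⟨fun hm => ⟨?_, ?_⟩, fun hm => ?_⟩⟩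
      · rintro rfl; exact hc hm
      · rintro rfl; exact hc' hm
      · by_contra hmn
        -- three colours are missing at `y0`, so three are outside `e, f` at `y1`
        have hce : c ≠ e := by rintro rfl; exact hc he0
        have hcf : c ≠ f := by rintro rfl; exact hc hf0
        have hce' : c' ≠ e := by rintro rfl; exact hc' he0
        have hcf' : c' ≠ f := by rintro rfl; exact hc' hf0
        have hme : m ≠ e := by rintro rfl; exact hmn he0
        have hmf : m ≠ f := by rintro rfl; exact hmn hf0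
        have a1 := alt h hN hzD (hD1 y1 hy1z) (hD1 _ hy0z) hz hw2 hy1z he1 hf1 c hce hcf
        have a2 := alt h hN hzD (hD1 y1 hy1z) (hD1 _ hy0z) hz hw2 hy1z he1 hf1 c' hce' hcf'
        have a3 := alt h hN hzD (hD1 y1 hy1z) (hD1 _ hy0z) hz hw2 hy1z he1 hf1 m hme hmf
        have b1 : c ∈ Pal V y1 := a1.2 hc
        have b2 : c' ∈ Pal V y1 := a2.2 hc'
        have b3 : m ∈ Pal V y1 := a3.2 hmn
        have h4 := ncard_le_four h hN (hD1 y1 hy1z)
        have hsub : (({e, f, c, c', m} : Finset (Fin 6)) : Set (Fin 6)) ⊆ Pal V y1 := by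
          intro x hx
          simp only [Finset.coe_insert, Finset.coe_singleton, mem_insert_iff,
            mem_singleton_iff] at hx
          rcases hx with rfl | rfl | rfl | rfl | rfl <;> assumption
        have h5 := Set.ncard_le_ncard hsub (Set.toFinite _)
        rw [Set.ncard_coe_finset] at h5
        have h6 : ({e, f, c, c', m} : Finset (Fin 6)).card = 5 := by
          have := hz.1
          rw [Finset.card_insert_of_notMem, Finset.card_insert_of_notMem,
            Finset.card_insert_of_notMem, Finset.card_insert_of_notMem, Finset.card_singleton]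
          · rw [Finset.mem_singleton]; exact hm.2.symm
          · simp only [Finset.mem_insert, Finset.mem_singleton, not_or]
            exact ⟨hc'c.symm, hm.1.symm⟩
          · simp only [Finset.mem_insert, Finset.mem_singleton, not_or]
            exact ⟨hcf.symm, hcf'.symm, hmf.symm⟩
          · simp only [Finset.mem_insert, Finset.mem_singleton, not_or]
            exact ⟨this, hce.symm, hce'.symm, hme.symm⟩
        omega
    have hM : Miss V y0 c c' := ⟨hcc, hmiss⟩
    have hce : e ≠ c ∧ e ≠ c' := (hmiss e).1 he0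
    have hcf : f ≠ c ∧ f ≠ c' := (hmiss f).1 hf0
    have hcz : c ∈ Pal V z := (hz.2 c).2 ⟨hce.1.symm, hcf.1.symm⟩
    have hcz' : c' ∈ Pal V z := (hz.2 c').2 ⟨hce.2.symm, hcf.2.symm⟩
    have hv2 : (1 - w) ^ 2 = (1 - w) - 1 := by linear_combination hw2
    have hzy0 : dist z y0 = 1 := by rw [dist_comm]; exact hy0z
    set z1 := y0 + (1 - w) * (z - y0) with hz1
    have hz1y : dist z1 y0 = 1 := dist_rot hv2 hzy0
    have c1 : c ∈ Pal V z1 := sixty h hN (hD1 y0 hy0z) hM.symm hv2 hzy0 hcz' hcz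
    have c2 : c' ∈ Pal V z1 := sixty h hN (hD1 y0 hy0z) hM hv2 hzy0 hcz hcz'
    have c3 : c ∈ Pal V (y0 + (1 - w) * (z1 - y0)) := sixty h hN (hD1 y0 hy0z) hM.symm hv2 hz1y c2 c1
    have c4 : c' ∈ Pal V (y0 + (1 - w) * (z1 - y0)) := sixty h hN (hD1 y0 hy0z) hM hv2 hz1y c1 c2
    have hpe : y0 + (1 - w) * (z1 - y0) = p := by
      rw [hz1, hp, hy0]
      linear_combination (y1 - z) * (1 - w) * hw2
    rw [hpe] at c3 c4
    have key : ∀ m, m ≠ c → m ≠ c' → (m ∈ Pal V z ↔ m ∈ Pal V p) := by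
      intro m h1 h2
      have a1 : m ∈ Pal V z ↔ m ∉ Pal V z1 := alt h hN (hD1 y0 hy0z) hzD
        (hD2 y0 z1 hy0z hz1y) hM hv2 hzy0 hcz hcz' m h1 h2
      have a2 : m ∈ Pal V z1 ↔ m ∉ Pal V (y0 + (1 - w) * (z1 - y0)) :=
        alt h hN (hD1 y0 hy0z) (hD2 y0 z1 hy0z hz1y)
          (hD2 y0 _ hy0z (dist_rot hv2 hz1y)) hM hv2 hz1y c1 c2 m h1 h2
      rw [hpe] at a2
      rw [a1, a2, not_not]
    refine ⟨?_, ?_, ?_⟩
    · rw [← key e hce.1 hce.2, hz.2 e]; exact fun hh => hh.1 rfl
    · rw [← key f hcf.1 hcf.2, hz.2 f]; exact fun hh => hh.2 rfl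
    · intro m h1 h2
      by_cases h3 : m = c
      · rw [h3]; exact c3
      by_cases h4 : m = c'
      · rw [h4]; exact c4
      · rw [← key m h3 h4, hz.2 m]; exact ⟨h1, h2⟩
  have hpD : p ∈ D := hD2 y0 p hy0z (by rw [dist_comm]; exact hyp)
  -- an arc of colour `e` on the circle about `p`
  have hJ : ∀ᶠ q in 𝓝[sphere p 1] y0, e ∈ Pal V q := by
    filter_upwards [mem_nhdsWithin_of_mem_nhds hfree, self_mem_nhdsWithin] with q h1 h2
    have h2 : dist q p = 1 := h2
    by_cases hq : q = y0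
    · rw [hq]; exact he0
    · by_contra hcon
      refine h.not_sub hN hpD (y := q) h2 fun m hm => hPp.2.2 m ?_ ?_
      · rintro rfl; exact hcon hm
      · rintro rfl; exact h1 (tangent_gt hy01 h2 hq) hm
  rcases h.partner_line (u := p) (p := y0) (t := e) (v := y5) hyp hJ
    (by rw [dist_comm]; exact hy50) he5 with h1 | h1
  · have h2 : (y1 - z) * w = 0 := by
      rw [hp, hy5, hy0] at h1
      linear_combination -h1 + (y1 - z) * hw2
    rcases mul_eq_zero.1 h2 with h3 | h3
    · exact hρ h3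
    · rw [h3] at hw2; norm_num at hw2
  · have h2 : (y1 - z) * (w - 2) = 0 := by
      rw [hp, hy5, hy0] at h1
      linear_combination h1 - (y1 - z) * hw2
    rcases mul_eq_zero.1 h2 with h3 | h3
    · exact hρ h3
    · have h4 : w = 2 := by linear_combination h3
      rw [h4] at hw2; norm_num at hw2

/-- **Order at most three** -/
theorem order_le_three (h : Fr V) (hN : NoArc V D) {x : ℂ} (hD : closedBall x 2 ⊆ D) :
    (Pal V x).ncard ≤ 3 := by
  have hxD : x ∈ D := hD (mem_closedBall_self (by norm_num))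
  by_contra hcon
  have h4 : (Pal V x).ncard = 4 := le_antisymm (ncard_le_four h hN hxD) (by omega)
  have h5 := Set.ncard_add_ncard_compl (Pal V x)
  rw [h4, Nat.card_eq_fintype_card, Fintype.card_fin] at h5
  obtain ⟨e, f, hef, hs⟩ := Set.ncard_eq_two.1 (show (Pal V x)ᶜ.ncard = 2 by omega)
  refine no_four h hN hD (z := x) (e := e) (f := f) ⟨hef, fun m => ?_⟩
  have : m ∈ (Pal V x)ᶜ ↔ m = e ∨ m = f := by rw [hs]; simp
  rw [mem_compl_iff] at this
  tauto

/-! ### closed covers -/

/-- the regularised family of a finite closed cover with unit-free interiors -/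
theorem fr_of_closed {n : ℕ} {F : Fin n → Set ℂ} (hF : ∀ i, IsClosed (F i))
    (hcov : (⋃ i, F i) = univ)
    (hfree : ∀ i, ∀ x ∈ interior (F i), ∀ y ∈ interior (F i), dist x y ≠ 1) :
    Fr fun i => interior (F i) := by
  refine ⟨fun x => ?_, fun i => free_closure isOpen_interior (hfree i), fun i => ?_⟩
  · -- the union of the interiors is dense
    have hd : Dense (⋃ i, interior (F i)) := dense_iUnion_interior_of_closed hF hcov
    have h1 : x ∈ closure (⋃ i, interior (F i)) := hd x
    rw [closure_iUnion_of_finite] at h1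
    simpa [Pal] using h1
  · refine Subset.antisymm ?_ (interior_maximal subset_closure isOpen_interior)
    exact interior_mono ((hF i).closure_subset_iff.2 interior_subset)

/-- **Closed covers without unit double arcs have order at most three (local form).** -/
theorem order_closed {F : Fin 6 → Set ℂ} (hF : ∀ i, IsClosed (F i))
    (hcov : (⋃ i, F i) = univ)
    (hfree : ∀ i, ∀ x ∈ interior (F i), ∀ y ∈ interior (F i), dist x y ≠ 1) {c : ℂ} {r : ℝ}
    (hND : ∀ i j, i ≠ j → ∀ z ∈ closedBall c (r + 2), ∀ p : ℂ, z ∈ F i → z ∈ F j →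
      dist p z = 1 → ¬ ∀ᶠ q in 𝓝[sphere z 1] p, q ∈ F i ∧ q ∈ F j) :
    ∀ x ∈ closedBall c r, {i | x ∈ closure (interior (F i))}.ncard ≤ 3 := by
  intro x hx
  have hsub : ∀ i, closure (interior (F i)) ⊆ F i := fun i =>
    (hF i).closure_subset_iff.2 interior_subset
  have hN : NoArc (fun i => interior (F i)) (closedBall c (r + 2)) := by
    intro i j hij z hz p hi hj hp hcon
    refine hND i j hij z hz p (hsub i hi) (hsub j hj) hp ?_
    exact hcon.mono fun q hq => ⟨hsub i hq.1, hsub j hq.2⟩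
  refine order_le_three (fr_of_closed hF hcov hfree) hN (x := x) fun y hy => ?_
  rw [mem_closedBall] at hx hy ⊢
  have := dist_triangle y x c
  linarith

end Vale.Agent.P032.ND
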